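import Mathlib

set_option autoImplicit false

namespace Crest.Agent.R92

open Filter Finset

/-- A finite set of reals has a uniform lower bound for its non-zero absolute values. -/
lemma exists_gap (S : Finset ℝ) : ∃ c : ℝ, 0 < c ∧ c ≤ 1 ∧ ∀ x ∈ S, x = 0 ∨ c ≤ |x| := by
  classical
  induction S using Finset.induction_on with
  | empty => exact ⟨1, one_pos, le_rfl, by simp⟩
  | insert a S _ ih =>
    obtain ⟨c, hc, hc1, h⟩ := ih
    by_cases ha : a = 0
    · refine ⟨c, hc, hc1, ?_⟩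
      intro x hx
      rcases Finset.mem_insert.1 hx with rfl | hx
      · exact Or.inl ha
      · exact h x hx
    · refine ⟨min c |a|, lt_min hc (abs_pos.2 ha), (min_le_left _ _).trans hc1, ?_⟩
      intro x hx
      rcases Finset.mem_insert.1 hx with rfl | hx
      · exact Or.inr (min_le_right _ _)
      · rcases h x hx with h | h
        · exact Or.inl h
        · exact Or.inr ((min_le_left _ _).trans h)

/-- The scale attached to an allowed value. -/
noncomputable def nu (Θ : Finset ℝ) (e μ s : ℝ) : ℝ := if s ∈ Θ then μ else e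

lemma nu_ge (Θ : Finset ℝ) {e μ : ℝ} (h : e ≤ μ) (s : ℝ) : e ≤ nu Θ e μ s := by
  unfold nu; split_ifs <;> linarith

lemma nu_le (Θ : Finset ℝ) {e μ : ℝ} (h : e ≤ μ) (s : ℝ) : nu Θ e μ s ≤ μ := by
  unfold nu; split_ifs <;> linarith

/-- Covering lemma: a finite set of allowed values, each a threshold or far from all thresholds. -/
lemma cover (Θ : Finset ℝ) (e μ lo τ : ℝ) (he : 0 < e) (hμ : e ≤ μ)
    (hsep : ∀ a ∈ Θ, ∀ b ∈ Θ, a = b ∨ e ≤ |a - b|) :
    ∃ A : Finset ℝ,
      (∀ s ∈ A, s ∈ Θ ∨ ∀ θ ∈ Θ, μ ≤ |s - θ|) ∧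
      (∀ s ∈ A, s - nu Θ e μ s ≤ τ ∧ lo - e - μ ≤ s) ∧
      (∀ s ∈ A, τ ≤ s + 2 * nu Θ e μ s ∨
        ∃ s' ∈ A, s + e ≤ s' ∧ s' - nu Θ e μ s' ≤ s + 2 * nu Θ e μ s) ∧
      (lo ≤ τ → ∃ s ∈ A, s - nu Θ e μ s ≤ lo) := by
  classical
  have hr : ∀ t : ℝ, ∃ s : ℝ, (s ∈ Θ ∧ |t - s| < μ) ∨ (s = t ∧ ∀ θ ∈ Θ, μ ≤ |t - θ|) := by
    intro t
    by_cases h : ∃ θ ∈ Θ, |t - θ| < μ
    · obtain ⟨θ, h1, h2⟩ := h
      exact ⟨θ, Or.inl ⟨h1, h2⟩⟩
    · push Not at h
      exact ⟨t, Or.inr ⟨rfl, h⟩⟩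
  choose r hr using hr
  have hμ0 : 0 < μ := lt_of_lt_of_le he hμ
  -- basic facts about `r`
  have hnot : ∀ t, (∀ θ ∈ Θ, μ ≤ |t - θ|) → t ∉ Θ := by
    intro t h ht
    have := h t ht
    simp at this
    linarith
  have hle : ∀ t, r t - nu Θ e μ (r t) ≤ t := by
    intro t
    rcases hr t with ⟨h1, h2⟩ | ⟨h1, h2⟩
    · have : nu Θ e μ (r t) = μ := by simp [nu, h1]
      rw [this]
      have := (abs_lt.1 h2).1
      linarith
    · have := nu_ge Θ hμ (r t)
      linarith
  have hge : ∀ t, t - μ ≤ r t := by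
    intro t
    rcases hr t with ⟨h1, h2⟩ | ⟨h1, h2⟩
    · have := (abs_lt.1 h2).2
      linarith
    · linarith
  set I : Finset ℤ := Finset.Icc ⌊lo / e⌋ ⌊τ / e⌋ with hI
  have hmemI : ∀ i : ℤ, i ∈ I ↔ lo - e < i * e ∧ (i : ℝ) * e ≤ τ := by
    intro i
    rw [hI, Finset.mem_Icc, Int.le_floor, le_div_iff₀ he]
    refine and_congr_left fun _ => ?_
    rw [← Int.lt_add_one_iff, Int.floor_lt, div_lt_iff₀ he]
    push_cast
    constructor <;> intro h <;> linarith
  refine ⟨I.image fun i : ℤ => r (i * e), ?_, ?_, ?_, ?_⟩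
  · intro s hs
    obtain ⟨i, -, rfl⟩ := Finset.mem_image.1 hs
    rcases hr (i * e) with ⟨h1, -⟩ | ⟨h1, h2⟩
    · exact Or.inl h1
    · right
      rw [h1]; exact h2
  · intro s hs
    obtain ⟨i, hi, rfl⟩ := Finset.mem_image.1 hs
    obtain ⟨h1, h2⟩ := (hmemI i).1 hi
    have := hle (i * e)
    have := hge (i * e)
    constructor <;> linarith
  · intro s hs
    obtain ⟨i, hi, rfl⟩ := Finset.mem_image.1 hs
    obtain ⟨h1, h2⟩ := (hmemI i).1 hi
    rcases hr (i * e) with ⟨h3, h4⟩ | ⟨h3, h4⟩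
    · -- wall type
      have hν : nu Θ e μ (r (i * e)) = μ := by simp [nu, h3]
      rw [hν]
      set θ := r (i * e) with hθ
      set j : ℤ := ⌈(θ + μ) / e⌉ with hj
      have hj1 : θ + μ ≤ j * e := by
        have := Int.le_ceil ((θ + μ) / e)
        rw [div_le_iff₀ he] at this
        exact this
      have hj2 : (j : ℝ) * e < θ + μ + e := by
        have := Int.ceil_lt_add_one ((θ + μ) / e)
        have h' : (j : ℝ) - 1 < (θ + μ) / e := by linarith
        rw [lt_div_iff₀ he] at h'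
        linarith
      by_cases hjτ : (j : ℝ) * e ≤ τ
      · right
        have h5 := (abs_lt.1 h4).2
        refine ⟨r (j * e), Finset.mem_image.2 ⟨j, (hmemI j).2 ⟨by linarith, hjτ⟩, rfl⟩, ?_, ?_⟩
        · rcases hr (j * e) with ⟨h6, h7⟩ | ⟨h6, h7⟩
          · have h8 := (abs_lt.1 h7).2
            rcases hsep _ h6 _ h3 with h9 | h9
            · rw [h9] at h8; linarith
            · rw [abs_of_nonneg (by linarith)] at h9
              linarith
          · rw [h6]; linarith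
        · have := hle (j * e)
          linarith
      · left
        push Not at hjτ
        linarith
    · -- grid type
      have hν : nu Θ e μ (r (i * e)) = e := by
        rw [h3]; simp [nu, hnot _ h4]
      rw [hν, h3]
      by_cases hjτ : ((i + 1 : ℤ) : ℝ) * e ≤ τ
      · right
        refine ⟨r (((i + 1 : ℤ) : ℝ) * e), Finset.mem_image.2 ⟨i + 1, (hmemI _).2
          ⟨by push_cast; linarith, hjτ⟩, rfl⟩, ?_, ?_⟩
        · rcases hr (((i + 1 : ℤ) : ℝ) * e) with ⟨h6, h7⟩ | ⟨h6, h7⟩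
          · have h8 := h4 _ h6
            have h9 := abs_lt.1 h7
            push_cast at h8 h9 ⊢
            rcases le_abs'.1 h8 with h10 | h10
            · linarith
            · linarith [h9.2]
          · rw [h6]; push_cast; linarith
        · have := hle (((i + 1 : ℤ) : ℝ) * e)
          push_cast at this ⊢
          linarith
      · left
        push Not at hjτ
        push_cast at hjτ
        linarith
  · intro hlo
    have h1 : (⌊lo / e⌋ : ℝ) * e ≤ lo := by
      have := Int.floor_le (lo / e)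
      rwa [le_div_iff₀ he] at this
    have h2 : lo - e < (⌊lo / e⌋ : ℝ) * e := by
      have := Int.lt_floor_add_one (lo / e)
      rw [div_lt_iff₀ he] at this
      linarith
    refine ⟨r (⌊lo / e⌋ * e), Finset.mem_image.2 ⟨_, (hmemI _).2 ⟨h2, h1.trans hlo⟩, rfl⟩, ?_⟩
    have := hle (⌊lo / e⌋ * e)
    linarith

end Crest.Agent.R92
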