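import Mathlib
import Crest.Agent.R92.Cover

set_option autoImplicit false

namespace Crest.Agent.R92

open Filter Finset

variable {ι : Type} [Fintype ι] [DecidableEq ι]

/-- A leaf: a covector together with a cost depending on the scale parameter `T`. -/
abbrev Leaf (ι : Type) : Type := (ι → ℝ) × (ℝ → ℝ)

/-- The score of a leaf at the point with coordinates `exp (T * ξ i)`. -/
noncomputable def score (l : Leaf ι) (T : ℝ) (ξ : ι → ℝ) : ℝ :=
  ∑ i, l.1 i * Real.exp (T * ξ i) - l.2 T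

/-- The inductive specification of a family of leaves below a node. -/
structure Good (𝒜 : Finset (ι → ℝ)) (U : Finset ι) (p : ι → ℝ) (e m τ Λ : ℝ)
    (L : Set (Leaf ι)) : Prop where
  fin : L.Finite
  smooth : ∀ l ∈ L, ContDiff ℝ 1 l.2
  nonneg : ∀ l ∈ L, ∀ T, 0 ≤ l.2 T
  off : ∀ l ∈ L, ∀ i, i ∉ U → l.1 i = p i
  top : ∀ l ∈ L, ∀ j ∈ U, l.1 j ≤ τ + m
  zero : ∃ q, (q, fun _ => (0 : ℝ)) ∈ L
  main : ∀ᶠ T in atTop, ∀ ξ : ι → ℝ, (∀ i, i ∉ U → |ξ i - p i| ≤ e) →
    (∀ j ∈ U, -Λ ≤ ξ j ∧ ξ j ≤ τ) → ∀ l ∈ L, (∀ l' ∈ L, score l' T ξ ≤ score l T ξ) →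
    (∀ a ∈ 𝒜, 0 < a ⬝ᵥ l.1 → 1 ≤ a ⬝ᵥ ξ) ∧ ∀ j ∈ U, |ξ j - l.1 j| ≤ m

omit [DecidableEq ι] in
lemma score_cmp {l l' : Leaf ι} {T : ℝ} {ξ : ι → ℝ} (h : score l' T ξ ≤ score l T ξ) :
    ∑ i, (l'.1 i - l.1 i) * Real.exp (T * ξ i) ≤ l'.2 T - l.2 T := by
  unfold score at h
  simp only [sub_mul, Finset.sum_sub_distrib]
  linarith

omit [DecidableEq ι] in
/-- One term of a sum of non-negative terms. -/
lemma single_le {c : ι → ℝ} {T : ℝ} {ξ : ι → ℝ} {j : ι} (hc : ∀ i, 0 ≤ c i) (hj : 1 ≤ c j) :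
    Real.exp (T * ξ j) ≤ ∑ i, c i * Real.exp (T * ξ i) := by
  have h1 : c j * Real.exp (T * ξ j) ≤ ∑ i, c i * Real.exp (T * ξ i) :=
    Finset.single_le_sum (f := fun i => c i * Real.exp (T * ξ i))
      (fun i _ => mul_nonneg (hc i) (Real.exp_pos _).le) (Finset.mem_univ j)
  have h2 := Real.exp_pos (T * ξ j)
  nlinarith

lemma le_of_exp_le {T x w N : ℝ} (hT : 0 < T) (hN : N ≤ Real.exp T)
    (h : Real.exp (T * x) ≤ N * Real.exp (T * w)) : x ≤ w + 1 := by
  have h1 : Real.exp (T * x) ≤ Real.exp (T * (w + 1)) := by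
    calc Real.exp (T * x) ≤ N * Real.exp (T * w) := h
      _ ≤ Real.exp T * Real.exp (T * w) := by gcongr
      _ = Real.exp (T * (w + 1)) := by rw [← Real.exp_add]; ring_nf
  have h2 := Real.exp_le_exp.1 h1
  exact le_of_mul_le_mul_left h2 hT

/-- The cost of a block of size `r` at value `s` with scale `ν`. -/
noncomputable def cost (G ν s : ℝ) (r : ℕ) (T : ℝ) : ℝ :=
  ∑ q ∈ range r, Real.exp (T * (s - G ^ q * ν))

lemma cost_nonneg (G ν s : ℝ) (r : ℕ) (T : ℝ) : 0 ≤ cost G ν s r T :=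
  Finset.sum_nonneg fun _ _ => (Real.exp_pos _).le

lemma cost_smooth (G ν s : ℝ) (r : ℕ) : ContDiff ℝ 1 (cost G ν s r) := by
  unfold cost
  exact ContDiff.sum fun q _ => by fun_prop

lemma cost_succ (G ν s : ℝ) (r : ℕ) (T : ℝ) :
    cost G ν s (r + 1) T = cost G ν s r T + Real.exp (T * (s - G ^ r * ν)) := by
  unfold cost; rw [Finset.sum_range_succ]

lemma cost_sub_le {G ν s T : ℝ} (hG : 1 ≤ G) (hν : 0 ≤ ν) (hT : 0 ≤ T) {r n N : ℕ}
    (hrn : r ≤ n) (hn : n ≤ N) :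
    cost G ν s n T - cost G ν s r T ≤ N * Real.exp (T * (s - G ^ r * ν)) := by
  unfold cost
  rw [← Finset.sum_Ico_eq_sub _ hrn]
  calc ∑ q ∈ Ico r n, Real.exp (T * (s - G ^ q * ν))
      ≤ ∑ q ∈ Ico r n, Real.exp (T * (s - G ^ r * ν)) := by
        refine Finset.sum_le_sum fun q hq => ?_
        have h1 : G ^ r ≤ G ^ q := pow_le_pow_right₀ hG (Finset.mem_Ico.1 hq).1
        gcongr
    _ = ((n - r : ℕ) : ℝ) * Real.exp (T * (s - G ^ r * ν)) := by simp
    _ ≤ N * Real.exp (T * (s - G ^ r * ν)) := by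
        gcongr
        omega

omit [DecidableEq ι] in
lemma base_case (𝒜 : Finset (ι → ℝ)) : ∃ R : ℝ, 1 ≤ R ∧ ∀ (p : ι → ℝ) (e m τ Λ : ℝ),
    1 ≤ e → R * e ≤ m → (∀ a ∈ 𝒜, a ⬝ᵥ p = 0 ∨ m ≤ |a ⬝ᵥ p|) →
    ∃ L, Good 𝒜 ∅ p e m τ Λ L := by
  have hn : ∀ a : ι → ℝ, 0 ≤ ∑ i, |a i| := fun a => Finset.sum_nonneg fun _ _ => abs_nonneg _
  refine ⟨1 + ∑ a ∈ 𝒜, ∑ i, |a i|, by
    have := Finset.sum_nonneg (s := 𝒜) fun a _ => hn a
    linarith, ?_⟩
  intro p e m τ Λ he hm hF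
  refine ⟨{(p, fun _ => 0)}, Set.finite_singleton _, ?_, ?_, ?_, ?_, ⟨p, rfl⟩, ?_⟩
  · rintro l rfl; exact contDiff_const
  · rintro l rfl T; exact le_rfl
  · rintro l rfl i _; rfl
  · rintro l rfl j hj; simp at hj
  · refine Eventually.of_forall ?_
    rintro T ξ hξ - l rfl -
    refine ⟨?_, by simp⟩
    intro a ha hpos
    have h1 : m ≤ a ⬝ᵥ p := by
      rcases hF a ha with h | h
      · exact absurd h hpos.ne'
      · rwa [abs_of_pos hpos] at h
    have h2 : a ⬝ᵥ p - a ⬝ᵥ ξ ≤ (∑ i, |a i|) * e := by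
      simp only [dotProduct]
      rw [← Finset.sum_sub_distrib, Finset.sum_mul]
      refine Finset.sum_le_sum fun i _ => ?_
      have h3 := hξ i (by simp)
      calc a i * p i - a i * ξ i = -(a i * (ξ i - p i)) := by ring
        _ ≤ |a i * (ξ i - p i)| := neg_le_abs _
        _ = |a i| * |ξ i - p i| := abs_mul _ _
        _ ≤ |a i| * e := by gcongr
    have h4 : ∑ i, |a i| ≤ ∑ a ∈ 𝒜, ∑ i, |a i| :=
      Finset.single_le_sum (f := fun a : ι → ℝ => ∑ i, |a i|) (fun a _ => hn a) ha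
    have h5 : (∑ i, |a i|) * e ≤ (∑ a ∈ 𝒜, ∑ i, |a i|) * e := by gcongr
    nlinarith


/-- Upper bound from comparing with the leaf that puts all remaining coordinates at `s`. -/
lemma upper_bound {U : Finset ι} {l l' : Leaf ι} {T G ν s : ℝ} {ξ : ι → ℝ}
    (hT : 0 < T) (hN : (Fintype.card ι : ℝ) ≤ Real.exp T) (hG : 1 ≤ G) (hν : 0 ≤ ν)
    (hs : score l' T ξ ≤ score l T ξ) {r : ℕ} (hr : r ≤ U.card)
    (hl2 : cost G ν s r T ≤ l.2 T) (hl'2 : l'.2 T = cost G ν s U.card T)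
    (hon : ∀ j ∈ U, l'.1 j = s) (hoff : ∀ i, i ∉ U → l'.1 i = l.1 i)
    (hle : ∀ j ∈ U, l.1 j ≤ s) {j : ι} (hjU : j ∈ U) (hj : l.1 j + 1 ≤ s) :
    ξ j ≤ s - G ^ r * ν + 1 := by
  have h1 := score_cmp hs
  have h2 : Real.exp (T * ξ j) ≤ ∑ i, (l'.1 i - l.1 i) * Real.exp (T * ξ i) := by
    refine single_le (fun i => ?_) ?_
    · by_cases hi : i ∈ U
      · rw [hon i hi]; linarith [hle i hi]
      · rw [hoff i hi]; simp
    · rw [hon j hjU]; linarith
  have h3 := cost_sub_le (s := s) hG hν hT.le hr (Finset.card_le_univ U)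
  refine le_of_exp_le hT hN ?_
  linarith

/-- Lower bound for the coordinates of the first block. -/
lemma lower_bound {U B : Finset ι} {l l' : Leaf ι} {T w D : ℝ} {ξ : ι → ℝ}
    (hT : 0 < T) (hD : 0 ≤ D) (hN : 2 * D * (Fintype.card ι : ℝ) ≤ Real.exp T)
    (hN' : 2 * D ≤ Real.exp T)
    (hs : score l' T ξ ≤ score l T ξ) (hc : l'.2 T + Real.exp (T * w) ≤ l.2 T)
    {j : ι} (hon : ∀ i ∈ B, i ≠ j → l'.1 i = l.1 i) (hoff : ∀ i, i ∉ U → l'.1 i = l.1 i)
    (hb : ∀ i, l.1 i - l'.1 i ≤ D) (htail : ∀ i ∈ U, i ∉ B → ξ i ≤ w - 1) :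
    w ≤ ξ j + 1 := by
  have h1 := score_cmp hs
  have h2 : ∑ i, (l.1 i - l'.1 i) * Real.exp (T * ξ i) ≤
      ∑ i : ι, ((if i = j then D * Real.exp (T * ξ j) else 0) + D * Real.exp (T * (w - 1))) := by
    refine Finset.sum_le_sum fun i _ => ?_
    have hp : 0 ≤ D * Real.exp (T * (w - 1)) := by positivity
    by_cases hij : i = j
    · subst hij
      simp only [if_true]
      have : (l.1 i - l'.1 i) * Real.exp (T * ξ i) ≤ D * Real.exp (T * ξ i) := by
        gcongr; exact hb i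
      linarith
    · simp only [hij, if_false, zero_add]
      by_cases hiU : i ∈ U
      · by_cases hiB : i ∈ B
        · rw [hon i hiB hij]; simpa using hp
        · have h3 := htail i hiU hiB
          calc (l.1 i - l'.1 i) * Real.exp (T * ξ i) ≤ D * Real.exp (T * ξ i) := by
                gcongr; exact hb i
            _ ≤ D * Real.exp (T * (w - 1)) := by gcongr
      · rw [hoff i hiU]; simpa using hp
  rw [Finset.sum_add_distrib, Finset.sum_ite_eq' Finset.univ j] at h2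
  simp only [Finset.mem_univ, if_true, Finset.sum_const, Finset.card_univ, nsmul_eq_mul] at h2
  have h3 : ∑ i, (l.1 i - l'.1 i) * Real.exp (T * ξ i) =
      -∑ i, (l'.1 i - l.1 i) * Real.exp (T * ξ i) := by
    rw [← Finset.sum_neg_distrib]
    exact Finset.sum_congr rfl fun i _ => by ring
  have h4 : Real.exp (T * w) = Real.exp T * Real.exp (T * (w - 1)) := by
    rw [← Real.exp_add]; ring_nf
  have h5 : 2 * D * (Fintype.card ι : ℝ) * Real.exp (T * (w - 1)) ≤ Real.exp (T * w) := by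
    rw [h4]; gcongr
  refine le_of_exp_le hT hN' ?_
  nlinarith

/-- The sum of the entries of `a` over a block. -/
noncomputable def bsum (a : ι → ℝ) (B : Finset ι) : ℝ := ∑ j ∈ B, a j

/-- Assign the value `s` to the coordinates of the block `B`. -/
noncomputable def assign (p : ι → ℝ) (B : Finset ι) (s : ℝ) : ι → ℝ :=
  fun i => if i ∈ B then s else p i

lemma dot_assign (a p : ι → ℝ) (B : Finset ι) (s : ℝ) (hp : ∀ j ∈ B, p j = 0) :
    a ⬝ᵥ assign p B s = a ⬝ᵥ p + s * bsum a B := by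
  simp only [dotProduct, assign, bsum]
  have : s * ∑ j ∈ B, a j = ∑ i, if i ∈ B then a i * s else 0 := by
    rw [Finset.sum_ite_mem, Finset.univ_inter, Finset.mul_sum]
    exact Finset.sum_congr rfl fun i _ => by ring
  rw [this, ← Finset.sum_add_distrib]
  refine Finset.sum_congr rfl fun i _ => ?_
  by_cases hi : i ∈ B
  · simp [hi, hp i hi]
  · simp [hi]

/-- Assemble the family of leaves of a node from those of its children. -/
lemma assemble (𝒜 : Finset (ι → ℝ)) (U : Finset ι) (hU : U.Nonempty) (p : ι → ℝ)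
    (e m τ Λ G μ : ℝ) (ν : ℝ → ℝ) (A : Finset ℝ) (he : 1 ≤ e) (hG : 3 ≤ G) (hμm : μ ≤ m)
    (hν1 : ∀ s, e ≤ ν s) (hν2 : ∀ s, ν s ≤ μ)
    (hA2 : ∀ s ∈ A, s - ν s ≤ τ ∧ (-Λ - 2) - e - μ ≤ s)
    (hA3 : ∀ s ∈ A, τ ≤ s + 2 * ν s ∨ ∃ s' ∈ A, s + e ≤ s' ∧ s' - ν s' ≤ s + 2 * ν s)
    (hA4 : -Λ - 2 ≤ τ → ∃ s ∈ A, s - ν s ≤ -Λ - 2)
    (hch : ∀ s ∈ A, ∀ B ⊆ U, B.Nonempty → ∃ m' : ℝ, 3 * G ^ (B.card - 1) * ν s ≤ m' ∧ m' ≤ m ∧
      m' + 2 ≤ G ^ B.card * ν s ∧ ∃ L, Good 𝒜 (U \ B) (assign p B s)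
        (3 * G ^ (B.card - 1) * ν s) m' (s - G ^ B.card * ν s + 1) Λ L) :
    ∃ L, Good 𝒜 U p e m τ Λ L := by
  classical
  choose! m' hm1 hm2 hm3 Lc hLc using hch
  set β : ℝ := min (-Λ - 3 - e - μ) (τ + m) with hβ
  set bot : Leaf ι := (assign p U β, fun _ => 0) with hbot
  set lift : ℝ → Finset ι → Leaf ι → Leaf ι :=
    fun s B l => (l.1, fun T => l.2 T + cost G (ν s) s B.card T) with hlift
  set L : Set (Leaf ι) :=
    {l | l = bot ∨ ∃ s ∈ A, ∃ B ⊆ U, B.Nonempty ∧ ∃ l' ∈ Lc s B, l = lift s B l'} with hL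
  have hG1 : 1 ≤ G := by linarith
  have hν0 : ∀ s, 1 ≤ ν s := fun s => he.trans (hν1 s)
  have hβs : ∀ s ∈ A, β + 1 ≤ s := by
    intro s hs
    have := (hA2 s hs).2
    have := min_le_left (-Λ - 3 - e - μ) (τ + m)
    linarith
  have hfin : L.Finite := by
    have h1 : (⋃ s ∈ (A : Set ℝ), ⋃ B ∈ {B : Finset ι | B ⊆ U ∧ B.Nonempty},
        lift s B '' Lc s B).Finite := by
      refine A.finite_toSet.biUnion fun s hs => (Set.toFinite _).biUnion fun B hB => ?_
      exact ((hLc s hs B hB.1 hB.2).fin).image _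
    refine ((Set.finite_singleton bot).union h1).subset ?_
    rintro l (rfl | ⟨s, hs, B, hB, hB', l', hl', rfl⟩)
    · exact Or.inl rfl
    · right
      simp only [Set.mem_iUnion]
      exact ⟨s, hs, B, ⟨hB, hB'⟩, l', hl', rfl⟩
  -- values of lifted leaves
  have hon : ∀ s ∈ A, ∀ B ⊆ U, B.Nonempty → ∀ l' ∈ Lc s B, ∀ j ∈ B, l'.1 j = s := by
    intro s hs B hB hB' l' hl' j hj
    rw [(hLc s hs B hB hB').off l' hl' j (by simp [hj])]
    simp [assign, hj]
  have htl : ∀ s ∈ A, ∀ B ⊆ U, B.Nonempty → ∀ l' ∈ Lc s B, ∀ j ∈ U, j ∉ B → l'.1 j + 1 ≤ s := by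
    intro s hs B hB hB' l' hl' j hj hj'
    have h1 := (hLc s hs B hB hB').top l' hl' j (by simp [hj, hj'])
    have h2 := hm3 s hs B hB hB'
    linarith
  have hoff : ∀ l ∈ L, ∀ i, i ∉ U → l.1 i = p i := by
    rintro l (rfl | ⟨s, hs, B, hB, hB', l', hl', rfl⟩) i hi
    · simp [hbot, assign, hi]
    · have hiB : i ∉ B := fun h => hi (hB h)
      have := (hLc s hs B hB hB').off l' hl' i (by simp [hi])
      simpa [hlift, assign, hiB] using this
  have hnn : ∀ l ∈ L, ∀ T, 0 ≤ l.2 T := by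
    rintro l (rfl | ⟨s, hs, B, hB, hB', l', hl', rfl⟩) T
    · exact le_rfl
    · exact add_nonneg ((hLc s hs B hB hB').nonneg l' hl' T) (cost_nonneg _ _ _ _ _)
  -- the comparison leaves
  have hK : ∀ s ∈ A, ∀ B ⊆ U, ∃ l ∈ L, (∀ T, l.2 T = cost G (ν s) s B.card T) ∧
      ∀ j ∈ B, l.1 j = s := by
    intro s hs B hB
    rcases B.eq_empty_or_nonempty with rfl | hB'
    · exact ⟨bot, Or.inl rfl, fun T => by simp [hbot, cost], by simp⟩
    · obtain ⟨q, hq⟩ := (hLc s hs B hB hB').zero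
      exact ⟨_, Or.inr ⟨s, hs, B, hB, hB', _, hq, rfl⟩, fun T => by simp [hlift],
        hon s hs B hB hB' (q, fun _ => 0) hq⟩
  obtain ⟨D, hD0, hD⟩ : ∃ D : ℝ, 0 ≤ D ∧ ∀ l ∈ L, ∀ l' ∈ L, ∀ i, l.1 i - l'.1 i ≤ D := by
    have h1 : ((fun x : Leaf ι × Leaf ι × ι => x.1.1 x.2.2 - x.2.1.1 x.2.2) ''
        (L ×ˢ L ×ˢ Set.univ)).Finite := (hfin.prod (hfin.prod Set.finite_univ)).image _
    obtain ⟨D, hD⟩ := h1.bddAbove
    refine ⟨max D 0, le_max_right _ _, fun l hl l' hl' i => ?_⟩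
    exact (hD ⟨(l, l', i), ⟨hl, hl', trivial⟩, rfl⟩).trans (le_max_left _ _)
  refine ⟨L, hfin, ?_, hnn, hoff, ?_, ⟨_, Or.inl rfl⟩, ?_⟩
  · rintro l (rfl | ⟨s, hs, B, hB, hB', l', hl', rfl⟩)
    · exact contDiff_const
    · exact ((hLc s hs B hB hB').smooth l' hl').add (cost_smooth _ _ _ _)
  · rintro l (rfl | ⟨s, hs, B, hB, hB', l', hl', rfl⟩) j hj
    · simp only [hbot, assign, hj, if_true]
      exact min_le_right _ _
    · have h1 := (hA2 s hs).1
      have h2 := hν2 s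
      by_cases hjB : j ∈ B
      · have := hon s hs B hB hB' l' hl' j hjB
        simp only [hlift]
        linarith
      · have := htl s hs B hB hB' l' hl' j hj hjB
        simp only [hlift]
        linarith
  · have E1 : ∀ᶠ T : ℝ in atTop, ∀ s ∈ A, ∀ B : Finset ι, B ⊆ U → B.Nonempty →
        ∀ ξ : ι → ℝ, (∀ i, i ∉ U \ B → |ξ i - assign p B s i| ≤ 3 * G ^ (B.card - 1) * ν s) →
        (∀ j ∈ U \ B, -Λ ≤ ξ j ∧ ξ j ≤ s - G ^ B.card * ν s + 1) → ∀ l ∈ Lc s B,
        (∀ l' ∈ Lc s B, score l' T ξ ≤ score l T ξ) →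
        (∀ a ∈ 𝒜, 0 < a ⬝ᵥ l.1 → 1 ≤ a ⬝ᵥ ξ) ∧ ∀ j ∈ U \ B, |ξ j - l.1 j| ≤ m' s B := by
      rw [Filter.eventually_all_finset]
      intro s hs
      rw [Filter.eventually_all]
      intro B
      by_cases hB : B ⊆ U ∧ B.Nonempty
      · filter_upwards [(hLc s hs B hB.1 hB.2).main] with T hT _ _ using hT
      · exact Eventually.of_forall fun T h1 h2 => absurd ⟨h1, h2⟩ hB
    have E2 : ∀ c : ℝ, ∀ᶠ T : ℝ in atTop, c ≤ Real.exp T := fun c =>
      Real.tendsto_exp_atTop.eventually_ge_atTop c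
    filter_upwards [E1, eventually_gt_atTop 0, E2 (Fintype.card ι),
      E2 (2 * D * (Fintype.card ι : ℝ)), E2 (2 * D)] with T hT1 hT hN1 hN2 hN3
    intro ξ hξ hrange l hl hmax
    -- comparison with "all remaining coordinates at `s'`"
    have hup : ∀ s' ∈ A, (∀ j ∈ U, l.1 j + 1 ≤ s') → ∀ j ∈ U, ξ j ≤ s' - ν s' + 1 := by
      intro s' hs' hle j hj
      obtain ⟨l', hl', h1, h2⟩ := hK s' hs' U le_rfl
      have := upper_bound (U := U) (l := l) (l' := l') (G := G) (ν := ν s') (s := s') (r := 0)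
        hT hN1 hG1 (by linarith [hν0 s']) (hmax l' hl') (Nat.zero_le _)
        (by simpa [cost] using hnn l hl T) (h1 T) h2
        (fun i hi => by rw [hoff l' hl' i hi, hoff l hl i hi])
        (fun j hj => by linarith [hle j hj]) hj (hle j hj)
      simpa using this
    rcases hl with rfl | ⟨s, hs, B, hB, hB', l', hl', rfl⟩
    · exfalso
      obtain ⟨j, hj⟩ := hU
      obtain ⟨h1, h2⟩ := hrange j hj
      obtain ⟨s', hs', h3⟩ := hA4 (by linarith)
      have := hup s' hs' (fun j hj => by simpa [hbot, assign, hj] using hβs s' hs') j hj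
      linarith
    · have hlL : lift s B l' ∈ L := Or.inr ⟨s, hs, B, hB, hB', l', hl', rfl⟩
      have hles : ∀ j ∈ U, l'.1 j ≤ s := by
        intro j hj
        by_cases hjB : j ∈ B
        · exact (hon s hs B hB hB' l' hl' j hjB).le
        · linarith [htl s hs B hB hB' l' hl' j hj hjB]
      -- upper bound
      have hub : ∀ j ∈ U, ξ j ≤ s + 2 * ν s + 1 := by
        intro j hj
        rcases hA3 s hs with h | ⟨s', hs', h1, h2⟩
        · linarith [(hrange j hj).2]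
        · have := hup s' hs' (fun j hj => by
            have := hles j hj
            simp only [hlift]
            linarith) j hj
          linarith
      -- tail bound
      have htail : ∀ j ∈ U, j ∉ B → ξ j ≤ s - G ^ B.card * ν s + 1 := by
        intro j hj hjB
        obtain ⟨l'', hl'', h1, h2⟩ := hK s hs U le_rfl
        exact upper_bound (U := U) (l := lift s B l') (l' := l'') (G := G) (ν := ν s) (s := s)
          (r := B.card) hT hN1 hG1 (by linarith [hν0 s]) (hmax l'' hl'') (Finset.card_le_card hB)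
          (by
            have := (hLc s hs B hB hB').nonneg l' hl' T
            simp only [hlift]
            linarith) (h1 T) h2
          (fun i hi => by rw [hoff l'' hl'' i hi, hoff _ hlL i hi])
          hles hj (htl s hs B hB hB' l' hl' j hj hjB)
      obtain ⟨r, hr⟩ : ∃ r, B.card = r + 1 := Nat.exists_eq_succ_of_ne_zero hB'.card_pos.ne'
      have hGr : 1 ≤ G ^ r := one_le_pow₀ hG1
      have hGν : 1 ≤ G ^ r * ν s := by nlinarith [hν0 s]
      have hGν' : ν s ≤ G ^ r * ν s := by nlinarith [hν0 s]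
      -- lower bound
      have hlb : ∀ j ∈ B, s - G ^ r * ν s ≤ ξ j + 1 := by
        intro j hj
        obtain ⟨l'', hl'', h1, h2⟩ := hK s hs (B.erase j) ((Finset.erase_subset _ _).trans hB)
        refine lower_bound (U := U) (B := B) (l := lift s B l') (l' := l'') hT hD0 hN2 hN3
          (hmax l'' hl'') ?_ ?_ ?_ (hD _ hlL _ hl'') ?_
        · have := (hLc s hs B hB hB').nonneg l' hl' T
          rw [h1 T, Finset.card_erase_of_mem hj]
          simp only [hlift, hr, cost_succ, Nat.add_sub_cancel]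
          linarith
        · intro i hi hij
          rw [h2 i (Finset.mem_erase.2 ⟨hij, hi⟩)]
          exact (hon s hs B hB hB' l' hl' i hi).symm
        · intro i hi
          rw [hoff l'' hl'' i hi, hoff _ hlL i hi]
        · intro i hi hiB
          have := htail i hi hiB
          rw [hr, pow_succ] at this
          nlinarith
      have herr : ∀ j ∈ B, |ξ j - s| ≤ 3 * G ^ (B.card - 1) * ν s := by
        intro j hj
        have h1 := hub j (hB hj)
        have h2 := hlb j hj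
        rw [hr, Nat.add_sub_cancel, abs_le]
        constructor <;> nlinarith [hν0 s]
      have hres := hT1 s hs B hB hB' ξ (by
          intro i hi
          by_cases hiB : i ∈ B
          · simpa [assign, hiB] using herr i hiB
          · have hiU : i ∉ U := fun h => hi (Finset.mem_sdiff.2 ⟨h, hiB⟩)
            have h1 := hξ i hiU
            have h2 := hν1 s
            simp only [assign, hiB, if_false, hr, Nat.add_sub_cancel]
            nlinarith)
        (fun j hj => ⟨(hrange j (Finset.mem_sdiff.1 hj).1).1,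
          htail j (Finset.mem_sdiff.1 hj).1 (Finset.mem_sdiff.1 hj).2⟩) l' hl' (by
          intro l'' hl''
          have := hmax (lift s B l'') (Or.inr ⟨s, hs, B, hB, hB', l'', hl'', rfl⟩)
          simp only [score, hlift] at this ⊢
          linarith)
      refine ⟨hres.1, fun j hj => ?_⟩
      by_cases hjB : j ∈ B
      · have h1 := herr j hjB
        have h2 : (lift s B l').1 j = s := hon s hs B hB hB' l' hl' j hjB
        rw [h2]
        linarith [hm1 s hs B hB hB', hm2 s hs B hB hB']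
      · exact (hres.2 j (Finset.mem_sdiff.2 ⟨hj, hjB⟩)).trans (hm2 s hs B hB hB')

/-- The tree theorem: every node with enough margin carries a good family of leaves. -/
theorem tree (𝒜 : Finset (ι → ℝ)) (k : ℕ) : ∃ (F : Finset (ι → ℝ)) (R : ℝ), 1 ≤ R ∧
    ∀ (U : Finset ι), U.card ≤ k → ∀ (p : ι → ℝ) (e m τ Λ : ℝ), (∀ j ∈ U, p j = 0) → 1 ≤ e →
      R * e ≤ m → (∀ a ∈ F, a ⬝ᵥ p = 0 ∨ m ≤ |a ⬝ᵥ p|) → ∃ L, Good 𝒜 U p e m τ Λ L := by
  classical
  induction k with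
  | zero =>
    obtain ⟨R, hR, h⟩ := base_case 𝒜
    refine ⟨𝒜, R, hR, fun U hU p e m τ Λ _ he hm hF => ?_⟩
    obtain rfl : U = ∅ := Finset.card_eq_zero.1 (Nat.le_zero.1 hU)
    exact h p e m τ Λ he hm hF
  | succ k ih =>
    obtain ⟨F', R', hR', ih⟩ := ih
    obtain ⟨c, hc0, hc1, hc⟩ := exists_gap
      ((F' ×ˢ (Finset.univ : Finset (Finset ι))).image fun x => bsum x.1 x.2)
    have hc' : ∀ a ∈ F', ∀ B : Finset ι, bsum a B = 0 ∨ c ≤ |bsum a B| := fun a ha B =>
      hc _ (Finset.mem_image.2 ⟨(a, B), by simp [ha], rfl⟩)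
    set G : ℝ := (3 * R' + 2) / c with hG
    have hGc : c * G = 3 * R' + 2 := by rw [hG]; field_simp
    have hG0 : 0 ≤ G := by rw [hG]; positivity
    have hG1 : 3 * R' + 2 ≤ G := by nlinarith
    have hG3 : 3 ≤ G := by linarith
    have hG1' : 1 ≤ G := by linarith
    have hGn : G ≤ G ^ (k + 1) := by
      calc G = G ^ 1 := (pow_one _).symm
        _ ≤ G ^ (k + 1) := pow_le_pow_right₀ hG1' (by omega)
    set F : Finset (ι → ℝ) := F' ∪ (((F' ×ˢ (Finset.univ : Finset (Finset ι))) ×ˢ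
      (F' ×ˢ (Finset.univ : Finset (Finset ι)))).image fun x =>
        (bsum x.1.1 x.1.2)⁻¹ • x.1.1 - (bsum x.2.1 x.2.2)⁻¹ • x.2.1) with hF
    refine ⟨F, G ^ (k + 1) * G ^ (k + 1), by nlinarith, ?_⟩
    intro U hU p e m τ Λ hp he hm hmar
    have hF' : ∀ a ∈ F', a ⬝ᵥ p = 0 ∨ m ≤ |a ⬝ᵥ p| := fun a ha =>
      hmar a (Finset.mem_union_left _ ha)
    set μ : ℝ := G ^ (k + 1) * e with hμ
    have heμ : e ≤ μ := by nlinarith
    have hμm' : G ^ (k + 1) * μ ≤ m := by rw [hμ]; linarith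
    have hμm : μ ≤ m := by nlinarith
    rcases U.eq_empty_or_nonempty with rfl | hUne
    · exact ih ∅ (by simp) p e m τ Λ hp he (by nlinarith) hF'
    set Θ : Finset ℝ := (F' ×ˢ (Finset.univ : Finset (Finset ι))).image fun x =>
      -((bsum x.1 x.2)⁻¹ * (x.1 ⬝ᵥ p)) with hΘ
    have hsep : ∀ a ∈ Θ, ∀ b ∈ Θ, a = b ∨ m ≤ |a - b| := by
      intro a ha b hb
      obtain ⟨x, hx, rfl⟩ := Finset.mem_image.1 ha
      obtain ⟨y, hy, rfl⟩ := Finset.mem_image.1 hb
      have := hmar ((bsum y.1 y.2)⁻¹ • y.1 - (bsum x.1 x.2)⁻¹ • x.1)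
        (Finset.mem_union_right _ (Finset.mem_image.2 ⟨(y, x), Finset.mem_product.2 ⟨hy, hx⟩, rfl⟩))
      rw [sub_dotProduct, smul_dotProduct, smul_dotProduct, smul_eq_mul, smul_eq_mul] at this
      rcases this with h | h
      · left; linarith
      · right
        convert h using 2
        ring
    obtain ⟨A, hA1, hA2, hA3, hA4⟩ := cover Θ e μ (-Λ - 2) τ (by linarith) heμ
      (fun a ha b hb => (hsep a ha b hb).imp id fun h => (heμ.trans hμm).trans h)
    refine assemble 𝒜 U hUne p e m τ Λ G μ (nu Θ e μ) A he hG3 hμm (nu_ge Θ heμ) (nu_le Θ heμ)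
      hA2 hA3 hA4 ?_
    intro s hs B hB hB'
    obtain ⟨r, hr⟩ : ∃ r, B.card = r + 1 := Nat.exists_eq_succ_of_ne_zero hB'.card_pos.ne'
    have hrk : r ≤ k := by
      have := Finset.card_le_card hB
      omega
    have hGr : 1 ≤ G ^ r := one_le_pow₀ hG1'
    have hGrk : G ^ r * G ≤ G ^ (k + 1) := by
      rw [← pow_succ]; exact pow_le_pow_right₀ hG1' (by omega)
    have hν1 := nu_ge Θ heμ s
    have hν2 := nu_le Θ heμ s
    set ν := nu Θ e μ s with hν
    have hGν : 1 ≤ G ^ r * ν := by nlinarith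
    -- the available margin
    have hkey : ∀ x : ℝ, 0 ≤ x → R' * (3 * G ^ r * x) ≤ c * (G ^ (k + 1) * x) := by
      intro x hx
      have h1 : 3 * R' * G ^ r ≤ c * G * G ^ r := by
        rw [hGc]; nlinarith
      have h2 : c * (G ^ r * G) ≤ c * G ^ (k + 1) := by gcongr
      nlinarith
    have hmm : R' * (3 * G ^ r * ν) ≤ c * m := by
      have h1 := hkey ν (by linarith)
      have h2 : G ^ (k + 1) * ν ≤ G ^ (k + 1) * μ := by gcongr
      nlinarith
    have hm0 : 0 ≤ m := by linarith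
    have hmm' : R' * (3 * G ^ r * ν) ≤ m := by nlinarith
    rw [hr, Nat.add_sub_cancel]
    refine ⟨R' * (3 * G ^ r * ν), by nlinarith, hmm', by rw [pow_succ]; nlinarith, ?_⟩
    refine ih (U \ B) ?_ _ _ _ _ _ ?_ (by nlinarith) le_rfl ?_
    · rw [Finset.card_sdiff_of_subset hB]; omega
    · intro j hj
      obtain ⟨h1, h2⟩ := Finset.mem_sdiff.1 hj
      simp [assign, h2, hp j h1]
    · intro a ha
      rw [dot_assign a p B s fun j hj => hp j (hB hj)]
      rcases hc' a ha B with h0 | h0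
      · rw [h0, mul_zero, add_zero]
        exact (hF' a ha).imp id fun h => hmm'.trans h
      · have hne : bsum a B ≠ 0 := by
          intro h; rw [h, abs_zero] at h0; linarith
        set θ : ℝ := -((bsum a B)⁻¹ * (a ⬝ᵥ p)) with hθ
        have hθΘ : θ ∈ Θ := Finset.mem_image.2 ⟨(a, B), by simp [ha], rfl⟩
        have heq : a ⬝ᵥ p + s * bsum a B = bsum a B * (s - θ) := by
          rw [hθ]; field_simp; ring
        rw [heq, abs_mul]
        rcases hA1 s hs with h1 | h1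
        · rcases hsep s h1 θ hθΘ with h2 | h2
          · left; rw [h2]; simp
          · right
            calc R' * (3 * G ^ r * ν) ≤ c * m := hmm
              _ ≤ |bsum a B| * |s - θ| := by gcongr
        · right
          have h2 := h1 θ hθΘ
          have h3 : s ∉ Θ := by
            intro h
            have := h1 s h
            simp at this
            linarith
          have h4 : ν = e := by simp [hν, nu, h3]
          calc R' * (3 * G ^ r * ν) ≤ c * μ := by rw [h4]; exact hkey e (by linarith)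
            _ ≤ |bsum a B| * |s - θ| := by gcongr

/-- The root of the tree. -/
theorem root (𝒜 : Finset (ι → ℝ)) : ∃ (R : ℝ) (L : Set (Leaf ι)), 1 ≤ R ∧ L.Finite ∧ L.Nonempty ∧
    (∀ l ∈ L, ContDiff ℝ 1 l.2) ∧
    ∀ᶠ T in atTop, ∀ ξ : ι → ℝ, (∀ j, |ξ j| ≤ R + 1) → ∀ l ∈ L,
      (∀ l' ∈ L, score l' T ξ ≤ score l T ξ) →
      (∀ a ∈ 𝒜, 0 < a ⬝ᵥ l.1 → 1 ≤ a ⬝ᵥ ξ) ∧ ∀ j, |ξ j - l.1 j| ≤ R := by
  obtain ⟨F, R, hR, h⟩ := tree 𝒜 (Fintype.card ι)
  obtain ⟨L, hL⟩ := h Finset.univ le_rfl 0 1 R (R + 1) (R + 1) (by simp) le_rfl (by simp)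
    (by simp)
  obtain ⟨q, hq⟩ := hL.zero
  refine ⟨R, L, hR, hL.fin, ⟨_, hq⟩, hL.smooth, ?_⟩
  filter_upwards [hL.main] with T hT ξ hξ l hl hmax
  have := hT ξ (by simp) (fun j _ => abs_le.1 (hξ j)) l hl hmax
  exact ⟨this.1, fun j => this.2 j (Finset.mem_univ j)⟩

end Crest.Agent.R92
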