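import Mathlib
import Crest.Prelude.Def_MassAction
import Crest.Agent.R92.Tree

set_option autoImplicit false

namespace Crest.Agent.R92

open Filter Finset
open Crest.AnalysisR.MassAction

/-- The polyhedron cut out by a family of moving half-spaces. -/
def poly {d : ℕ} (Q : Set (Leaf (Fin d))) (T : ℝ) : Set (Fin d → ℝ) :=
  {x | ∀ l ∈ Q, l.1 ⬝ᵥ x ≤ l.2 T}

/-- A finite non-empty family of locally Lipschitz functions has a locally Lipschitz minimum. -/
lemma exists_min_fun {α : Type} (Z : Set α) (hZ : Z.Finite) (hne : Z.Nonempty) (w : α → ℝ → ℝ)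
    (hw : ∀ a ∈ Z, LocallyLipschitz (w a)) :
    ∃ W : ℝ → ℝ, LocallyLipschitz W ∧ (∀ T, ∀ a ∈ Z, W T ≤ w a T) ∧
      ∀ T, ∃ a ∈ Z, W T = w a T := by
  induction Z, hZ using Set.Finite.induction_on with
  | empty => exact absurd hne (by simp)
  | @insert a S _ hS ih =>
    rcases S.eq_empty_or_nonempty with rfl | hS'
    · refine ⟨w a, hw a (by simp), ?_, fun T => ⟨a, by simp, rfl⟩⟩
      intro T b hb
      obtain rfl : b = a := by simpa using hb
      exact le_rfl
    · obtain ⟨W, h1, h2, h3⟩ := ih hS' fun b hb => hw b (Set.mem_insert_of_mem _ hb)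
      refine ⟨fun T => min (w a T) (W T), (hw a (by simp)).min h1, ?_, ?_⟩
      · intro T b hb
        rcases hb with rfl | hb
        · exact min_le_left _ _
        · exact (min_le_right _ _).trans (h2 T b hb)
      · intro T
        rcases le_total (w a T) (W T) with h | h
        · exact ⟨a, by simp, min_eq_left h⟩
        · obtain ⟨b, hb, h4⟩ := h3 T
          exact ⟨b, Set.mem_insert_of_mem _ hb, by rw [← h4]; exact min_eq_right h⟩

/-- A path from above a level to below it contains a step crossing the level downwards. -/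
lemma exists_down {α : Type} {r : α → α → Prop} (φ : α → ℝ) (t : ℝ) {a b : α}
    (h : Relation.ReflTransGen r a b) (ha : t < φ a) (hb : φ b ≤ t) :
    ∃ x y, r x y ∧ t < φ x ∧ φ y ≤ t := by
  induction h with
  | refl => exact absurd ha (not_lt.2 hb)
  | @tail b c _ hbc ih =>
    by_cases h : φ b ≤ t
    · exact ih h
    · exact ⟨b, c, hbc, not_le.1 h, hb⟩

/-- A complex as a real vector. -/
def cvec {d : ℕ} (y : Fin d → ℕ) : Fin d → ℝ := fun i => (y i : ℝ)

lemma reactionVector_eq {d : ℕ} (r : (Fin d → ℕ) × (Fin d → ℕ)) :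
    reactionVector r = cvec r.2 - cvec r.1 := rfl

lemma prod_exp_pow {d : ℕ} (y : Fin d → ℕ) (T : ℝ) (ξ : Fin d → ℝ) :
    ∏ i, Real.exp (T * ξ i) ^ y i = Real.exp (T * (cvec y ⬝ᵥ ξ)) := by
  simp only [dotProduct, cvec, Finset.mul_sum, Real.exp_sum, ← Real.exp_nat_mul]
  exact Finset.prod_congr rfl fun i _ => by ring_nf

/-- The cut argument: if the monomials are ordered compatibly with the covector `q`, with a large
gap, the mass-action field points strictly against `q`. -/
lemma cut {d : ℕ} (R : Network d) (hR : IsWeaklyReversible R)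
    (k : (Fin d → ℕ) × (Fin d → ℕ) → ℝ) (hk : ∀ r ∈ R, 0 < k r) (q : Fin d → ℝ)
    (hq : ∃ r ∈ R, q ⬝ᵥ reactionVector r ≠ 0) :
    ∀ᶠ T : ℝ in atTop, ∀ ξ : Fin d → ℝ,
      (∀ r ∈ R, ∀ r' ∈ R, 0 < (cvec r'.1 - cvec r.1) ⬝ᵥ q → 1 ≤ (cvec r'.1 - cvec r.1) ⬝ᵥ ξ) →
      q ⬝ᵥ field R k (fun i => Real.exp (T * ξ i)) < 0 := by
  classical
  set φ : (Fin d → ℕ) → ℝ := fun y => q ⬝ᵥ cvec y with hφ
  set g : (Fin d → ℕ) × (Fin d → ℕ) → ℝ := fun r => k r * (φ r.2 - φ r.1) with hg
  have hdown : ∀ r ∈ R, φ r.1 < φ r.2 → ∃ r' ∈ R, φ r.1 < φ r'.1 ∧ φ r'.2 < φ r'.1 := by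
    intro r hr h
    obtain ⟨x, y, h1, h2, h3⟩ := exists_down φ (φ r.1) (hR r hr) h le_rfl
    exact ⟨(x, y), h1, h2, lt_of_le_of_lt h3 h2⟩
  have E : ∀ᶠ T : ℝ in atTop, ∀ r ∈ R, ∀ r' ∈ R, φ r'.2 < φ r'.1 →
      ((R.card : ℝ) + 1) * g r ≤ -g r' * Real.exp T := by
    rw [Filter.eventually_all_finset]
    intro r _
    rw [Filter.eventually_all_finset]
    intro r' hr'
    by_cases h : φ r'.2 < φ r'.1
    · have hpos : 0 < -g r' := by
        have := hk r' hr'
        simp only [hg]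
        nlinarith
      filter_upwards [Real.tendsto_exp_atTop.eventually_ge_atTop
        (((R.card : ℝ) + 1) * g r / -g r')] with T hT _
      rw [div_le_iff₀ hpos] at hT
      linarith
    · exact Eventually.of_forall fun T h' => absurd h' h
  filter_upwards [E, eventually_gt_atTop 0] with T hT hT0 ξ hξ
  set mon : (Fin d → ℕ) × (Fin d → ℕ) → ℝ := fun r => Real.exp (T * (cvec r.1 ⬝ᵥ ξ)) with hmon
  have hfield : q ⬝ᵥ field R k (fun i => Real.exp (T * ξ i)) = ∑ r ∈ R, g r * mon r := by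
    unfold field
    rw [dotProduct_sum]
    refine Finset.sum_congr rfl fun r _ => ?_
    rw [dotProduct_smul, prod_exp_pow, reactionVector_eq, dotProduct_sub, smul_eq_mul]
    simp only [hg, hmon, hφ]
    ring
  rw [hfield]
  set D : ℝ := ∑ r ∈ R, max (-(g r * mon r)) 0 with hD
  have hDr : ∀ r ∈ R, -(g r * mon r) ≤ D := fun r hr =>
    (le_max_left _ _).trans (Finset.single_le_sum (f := fun r => max (-(g r * mon r)) 0)
      (fun _ _ => le_max_right _ _) hr)
  have hmpos : ∀ r, 0 < mon r := fun r => Real.exp_pos _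
  have hDpos : 0 < D := by
    obtain ⟨r, hr, hne⟩ := hq
    have hne' : φ r.2 ≠ φ r.1 := by
      intro h
      apply hne
      rw [reactionVector_eq, dotProduct_sub]
      simp only [hφ] at h
      rw [h, sub_self]
    obtain ⟨r', hr', h⟩ : ∃ r' ∈ R, φ r'.2 < φ r'.1 := by
      rcases lt_or_gt_of_ne hne' with h | h
      · exact ⟨r, hr, h⟩
      · obtain ⟨r', h1, -, h2⟩ := hdown r hr h
        exact ⟨r', h1, h2⟩
    refine lt_of_lt_of_le ?_ (hDr r' hr')
    have h1 := hk r' hr'
    have h2 := hmpos r'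
    have h3 : 0 < k r' * (φ r'.1 - φ r'.2) * mon r' := by
      have : 0 < φ r'.1 - φ r'.2 := by linarith
      positivity
    simp only [hg]
    linarith
  have hup : ∀ r ∈ R, ((R.card : ℝ) + 1) * max (g r * mon r) 0 ≤ D := by
    intro r hr
    rcases le_total (g r * mon r) 0 with h | h
    · rw [max_eq_right h]; simpa using hDpos.le
    · rw [max_eq_left h]
      by_cases hlt : φ r.1 < φ r.2
      · obtain ⟨r', hr', h1, h2⟩ := hdown r hr hlt
        have h3 := hξ r hr r' hr' (by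
          rw [sub_dotProduct, dotProduct_comm _ q, dotProduct_comm _ q]
          simp only [hφ] at h1
          linarith)
        rw [sub_dotProduct] at h3
        have h4 : Real.exp T * mon r ≤ mon r' := by
          simp only [hmon]
          rw [← Real.exp_add]
          apply Real.exp_le_exp.2
          nlinarith
        have h5 := hT r hr r' hr' h2
        have h6 : 0 ≤ -g r' := by
          have := hk r' hr'
          simp only [hg]
          nlinarith
        calc ((R.card : ℝ) + 1) * (g r * mon r) = ((R.card : ℝ) + 1) * g r * mon r := by ring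
          _ ≤ -g r' * Real.exp T * mon r := by gcongr
          _ = -g r' * (Real.exp T * mon r) := by ring
          _ ≤ -g r' * mon r' := by gcongr
          _ = -(g r' * mon r') := by ring
          _ ≤ D := hDr r' hr'
      · have h1 : g r ≤ 0 := by
          have := hk r hr
          simp only [hg]
          push Not at hlt
          nlinarith
        have h2 : g r * mon r ≤ 0 := mul_nonpos_of_nonpos_of_nonneg h1 (hmpos r).le
        have h3 : g r * mon r = 0 := le_antisymm h2 h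
        rw [h3]; simpa using hDpos.le
  have hsplit : ∑ r ∈ R, g r * mon r = ∑ r ∈ R, max (g r * mon r) 0 - D := by
    rw [hD, ← Finset.sum_sub_distrib]
    refine Finset.sum_congr rfl fun r _ => ?_
    rcases le_total (g r * mon r) 0 with h | h
    · rw [max_eq_right h, max_eq_left (by linarith)]; ring
    · rw [max_eq_left h, max_eq_right (by linarith)]; ring
  have hsum : ((R.card : ℝ) + 1) * ∑ r ∈ R, max (g r * mon r) 0 ≤ R.card * D := by
    rw [Finset.mul_sum]
    calc ∑ r ∈ R, ((R.card : ℝ) + 1) * max (g r * mon r) 0 ≤ ∑ r ∈ R, D :=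
          Finset.sum_le_sum hup
      _ = R.card * D := by simp
  rw [hsplit]
  have hc : (0 : ℝ) ≤ R.card := Nat.cast_nonneg _
  nlinarith

/-- The geometric statement: a moving polyhedron on whose faces the field points inwards. -/
theorem geom {d : ℕ} (R : Network d) (hR : IsWeaklyReversible R)
    (k : (Fin d → ℕ) × (Fin d → ℕ) → ℝ) (hk : ∀ r ∈ R, 0 < k r) :
    ∃ (Q : Set (Leaf (Fin d))) (ρ : ℝ → ℝ), Q.Finite ∧ (∀ l ∈ Q, LocallyLipschitz l.2) ∧
      Monotone ρ ∧ (∀ T, ∀ x ∈ poly Q T, ∀ j, 0 < x j ∧ x j ≤ ρ T) ∧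
      (∀ᶠ T in atTop, ∀ x ∈ poly Q T, ∀ l ∈ Q, l.1 ⬝ᵥ x = l.2 T →
        (∀ r ∈ R, l.1 ⬝ᵥ reactionVector r = 0) ∨ l.1 ⬝ᵥ field R k x < 0) ∧
      ∀ x : Fin d → ℝ, (∀ j, 0 < x j) → ∀ᶠ T in atTop, x ∈ poly Q T := by
  classical
  set 𝒜 : Finset (Fin d → ℝ) := ((R ×ˢ R).image fun x => cvec x.2.1 - cvec x.1.1) ∪
    ((Finset.univ.image fun j : Fin d => (Pi.single j 1 : Fin d → ℝ)) ∪
      (Finset.univ.image fun j : Fin d => -(Pi.single j 1 : Fin d → ℝ))) with h𝒜
  obtain ⟨ρ, L, hρ, hfin, hne, hsm, hmain⟩ := root 𝒜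
  have hex : ∀ T ξ, ∃ l ∈ L, ∀ l' ∈ L, score l' T ξ ≤ score l T ξ := fun T ξ =>
    Set.exists_max_image L (fun l => score l T ξ) hfin hne
  -- maximisers near the origin are zero leaves
  have hzero : ∀ᶠ T in atTop, ∀ ξ : Fin d → ℝ, (∀ j, |ξ j| < 1) → ∀ l ∈ L,
      (∀ l' ∈ L, score l' T ξ ≤ score l T ξ) → l.1 = 0 := by
    filter_upwards [hmain] with T hT ξ hξ l hl hmax
    have h := (hT ξ (fun j => by linarith [hξ j]) l hl hmax).1
    funext j
    have h1 := h (Pi.single j 1) (by simp [h𝒜])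
    have h2 := h (-Pi.single j 1) (by simp [h𝒜])
    simp only [single_dotProduct, one_mul, neg_dotProduct] at h1 h2
    have h3 := abs_lt.1 (hξ j)
    rcases lt_trichotomy (l.1 j) 0 with h4 | h4 | h4
    · have := h2 (by linarith); linarith
    · exact h4
    · have := h1 h4; linarith
  set Z : Set (Leaf (Fin d)) := {l ∈ L | l.1 = 0} with hZ
  have hZne : Z.Nonempty := by
    obtain ⟨T, hT⟩ := hzero.exists
    obtain ⟨l, hl, hmax⟩ := hex T 0
    exact ⟨l, hl, hT 0 (by simp) l hl hmax⟩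
  obtain ⟨W, hW1, hW2, hW3⟩ := exists_min_fun Z (hfin.subset (Set.sep_subset _ _)) hZne
    (fun l => l.2) fun l hl => (hsm l hl.1).locallyLipschitz
  set up : Fin d → Leaf (Fin d) := fun j => (Pi.single j 1, fun T => Real.exp (T * (ρ + 1)))
    with hup
  set dn : Fin d → Leaf (Fin d) :=
    fun j => (-Pi.single j 1, fun T => -Real.exp (T * -(ρ + 1))) with hdn
  set sh : Leaf (Fin d) → Leaf (Fin d) := fun l => (l.1, fun T => l.2 T - W T) with hsh
  set Q : Set (Leaf (Fin d)) := sh '' L ∪ (Set.range up ∪ Set.range dn) with hQ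
  have hmem : ∀ T x, x ∈ poly Q T ↔ (∀ l ∈ L, l.1 ⬝ᵥ x ≤ l.2 T - W T) ∧
      ∀ j, Real.exp (T * -(ρ + 1)) ≤ x j ∧ x j ≤ Real.exp (T * (ρ + 1)) := by
    intro T x
    constructor
    · intro h
      refine ⟨fun l hl => h (sh l) (Or.inl ⟨l, hl, rfl⟩), fun j => ⟨?_, ?_⟩⟩
      · have := h (dn j) (Or.inr (Or.inr ⟨j, rfl⟩))
        simpa [hdn] using this
      · have := h (up j) (Or.inr (Or.inl ⟨j, rfl⟩))
        simpa [hup] using this
    · rintro ⟨h1, h2⟩ l (⟨l, hl, rfl⟩ | ⟨j, rfl⟩ | ⟨j, rfl⟩)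
      · exact h1 l hl
      · simpa [hup] using (h2 j).2
      · simpa [hdn] using (h2 j).1
  have hlog : ∀ T : ℝ, 0 < T → ∀ x : Fin d → ℝ, (∀ j, 0 < x j) →
      ∃ ξ : Fin d → ℝ, x = fun j => Real.exp (T * ξ j) := by
    intro T hT x hx
    refine ⟨fun j => Real.log (x j) / T, funext fun j => ?_⟩
    rw [mul_div_cancel₀ _ hT.ne', Real.exp_log (hx j)]
  have hscore : ∀ (l : Leaf (Fin d)) T ξ,
      score l T ξ = l.1 ⬝ᵥ (fun j => Real.exp (T * ξ j)) - l.2 T := fun l T ξ => rfl
  refine ⟨Q, fun T => Real.exp (T * (ρ + 1)), ?_, ?_, ?_, ?_, ?_, ?_⟩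
  · exact (hfin.image _).union ((Set.finite_range _).union (Set.finite_range _))
  · rintro l (⟨l, hl, rfl⟩ | ⟨j, rfl⟩ | ⟨j, rfl⟩)
    · exact (hsm l hl).locallyLipschitz.sub hW1
    · exact ContDiff.locallyLipschitz (𝕂 := ℝ) (by simp only [hup]; fun_prop)
    · exact ContDiff.locallyLipschitz (𝕂 := ℝ) (by simp only [hdn]; fun_prop)
  · intro a b hab
    have : 0 ≤ ρ + 1 := by linarith
    simp only
    gcongr
  · intro T x hx j
    have := ((hmem T x).1 hx).2 j
    exact ⟨(Real.exp_pos _).trans_le this.1, this.2⟩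
  · have E : ∀ᶠ T : ℝ in atTop, ∀ l ∈ L, (∃ r ∈ R, l.1 ⬝ᵥ reactionVector r ≠ 0) →
        ∀ ξ : Fin d → ℝ, (∀ r ∈ R, ∀ r' ∈ R, 0 < (cvec r'.1 - cvec r.1) ⬝ᵥ l.1 →
          1 ≤ (cvec r'.1 - cvec r.1) ⬝ᵥ ξ) →
        l.1 ⬝ᵥ field R k (fun i => Real.exp (T * ξ i)) < 0 := by
      rw [Filter.eventually_all_finite hfin]
      intro l _
      by_cases h : ∃ r ∈ R, l.1 ⬝ᵥ reactionVector r ≠ 0
      · filter_upwards [cut R hR k hk l.1 h] with T hT _ using hT
      · exact Eventually.of_forall fun T h' => absurd h' h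
    filter_upwards [E, hmain, eventually_gt_atTop 0] with T hE hT hT0 x hx
    obtain ⟨h1, h2⟩ := (hmem T x).1 hx
    obtain ⟨ξ, rfl⟩ := hlog T hT0 x fun j => (Real.exp_pos _).trans_le (h2 j).1
    have hξ : ∀ j, |ξ j| ≤ ρ + 1 := by
      intro j
      have h3 := Real.exp_le_exp.1 (h2 j).1
      have h4 := Real.exp_le_exp.1 (h2 j).2
      exact abs_le.2 ⟨le_of_mul_le_mul_left h3 hT0, le_of_mul_le_mul_left h4 hT0⟩
    have hsmall : ∀ j, |ξ j| ≤ ρ := by
      obtain ⟨l₀, hl₀, h3⟩ := hW3 T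
      have := (hT ξ hξ l₀ hl₀.1 (by
        intro l' hl'
        have := h1 l' hl'
        rw [hscore, hscore, hl₀.2, zero_dotProduct]
        linarith)).2
      intro j
      simpa [hl₀.2] using this j
    rintro l (⟨l, hl, rfl⟩ | ⟨j, rfl⟩ | ⟨j, rfl⟩) hact
    · by_cases h : ∃ r ∈ R, l.1 ⬝ᵥ reactionVector r ≠ 0
      · right
        have h3 := (hT ξ hξ l hl (by
          intro l' hl'
          have := h1 l' hl'
          simp only [hsh] at hact
          rw [hscore, hscore]
          linarith)).1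
        exact hE l hl h ξ fun r hr r' hr' => h3 _ (Finset.mem_union_left _
          (Finset.mem_image.2 ⟨(r, r'), Finset.mem_product.2 ⟨hr, hr'⟩, rfl⟩))
      · left
        push Not at h
        exact h
    · exfalso
      simp only [hup, single_dotProduct, one_mul, Real.exp_eq_exp] at hact
      have := mul_left_cancel₀ hT0.ne' hact
      have := (abs_le.1 (hsmall j)).2
      linarith
    · exfalso
      simp only [hdn, neg_dotProduct, single_dotProduct, one_mul, neg_inj, Real.exp_eq_exp] at hact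
      have := mul_left_cancel₀ hT0.ne' hact
      have := (abs_le.1 (hsmall j)).1
      linarith
  · intro x hx
    have E : ∀ᶠ T : ℝ in atTop, ∀ j, |Real.log (x j)| < T := by
      rw [Filter.eventually_all]
      exact fun j => eventually_gt_atTop _
    filter_upwards [E, hzero, eventually_gt_atTop 0] with T hE hT hT0
    set ξ : Fin d → ℝ := fun j => Real.log (x j) / T with hξ
    have hx' : x = fun j => Real.exp (T * ξ j) := by
      funext j
      rw [hξ]
      simp only
      rw [mul_div_cancel₀ _ hT0.ne', Real.exp_log (hx j)]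
    have hξ1 : ∀ j, |ξ j| < 1 := by
      intro j
      rw [hξ]
      simp only
      rw [abs_div, abs_of_pos hT0, div_lt_one hT0]
      exact hE j
    rw [hmem]
    constructor
    · intro l hl
      obtain ⟨l₀, hl₀, hmax⟩ := hex T ξ
      have h0 := hT ξ hξ1 l₀ hl₀ hmax
      have h1 := hW2 T l₀ ⟨hl₀, h0⟩
      have h2 := hmax l hl
      rw [hscore, hscore, h0, zero_dotProduct, ← hx'] at h2
      linarith
    · intro j
      have h1 := abs_lt.1 (hξ1 j)
      rw [hx']
      constructor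
      · apply Real.exp_le_exp.2
        nlinarith
      · apply Real.exp_le_exp.2
        nlinarith

end Crest.Agent.R92
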