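import Mathlib
import Crest.Prelude.Def_MassAction
import Crest.Agent.R92.Geom

set_option autoImplicit false

namespace Crest.Agent.R92

open Filter Set Topology
open Crest.AnalysisR.MassAction

variable {d : ℕ}

lemma fwd_continuousOn {v : (Fin d → ℝ) → (Fin d → ℝ)} {x : ℝ → (Fin d → ℝ)}
    (hx : IsForwardSolution v x) : ContinuousOn x (Ici 0) :=
  fun t ht => (hx t ht).continuousWithinAt

lemma fwd_right {v : (Fin d → ℝ) → (Fin d → ℝ)} {x : ℝ → (Fin d → ℝ)}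
    (hx : IsForwardSolution v x) {t : ℝ} (ht : 0 ≤ t) : HasDerivWithinAt x (v (x t)) (Ici t) t :=
  (hx t ht).mono (Ici_subset_Ici.2 ht)

/-- A linear first integral is constant along forward solutions. -/
lemma fwd_const {v : (Fin d → ℝ) → (Fin d → ℝ)} {x : ℝ → (Fin d → ℝ)}
    (hx : IsForwardSolution v x) (φ : (Fin d → ℝ) →L[ℝ] ℝ) (hφ : ∀ y, φ (v y) = 0) {t : ℝ}
    (ht : 0 ≤ t) : φ (x t) = φ (x 0) := by
  refine constant_of_has_deriv_right_zero (f := fun s => φ (x s)) (a := 0) (b := t)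
    (φ.continuous.comp_continuousOn ((fwd_continuousOn hx).mono Icc_subset_Ici_self)) ?_ t
    ⟨ht, le_rfl⟩
  intro s hs
  have := φ.hasFDerivAt.comp_hasDerivWithinAt s (fwd_right hx hs.1)
  rwa [hφ] at this

lemma fwd_sub_mem {v : (Fin d → ℝ) → (Fin d → ℝ)} {x : ℝ → (Fin d → ℝ)}
    (hx : IsForwardSolution v x) (S : Submodule ℝ (Fin d → ℝ)) (hv : ∀ y, v y ∈ S) {t : ℝ}
    (ht : 0 ≤ t) : x t - x 0 ∈ S := by
  rw [← Subspace.forall_mem_dualAnnihilator_apply_eq_zero_iff]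
  intro φ hφ
  have := fwd_const hx (LinearMap.toContinuousLinearMap φ)
    (fun y => (Submodule.mem_dualAnnihilator φ).1 hφ _ (hv y)) ht
  simp only [LinearMap.coe_toContinuousLinearMap'] at this
  rw [map_sub, this, sub_self]

/-- The dot product with a fixed vector as a continuous linear map. -/
noncomputable def dotL (q : Fin d → ℝ) : (Fin d → ℝ) →L[ℝ] ℝ :=
  LinearMap.toContinuousLinearMap
    { toFun := fun x => q ⬝ᵥ x
      map_add' := fun x y => dotProduct_add q x y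
      map_smul' := fun c x => by simp }

@[simp] lemma dotL_apply (q x : Fin d → ℝ) : dotL q x = q ⬝ᵥ x := rfl

/-- Moving invariance: a solution stays in a slowly shrinking polyhedron. -/
lemma moving {v : (Fin d → ℝ) → (Fin d → ℝ)} {x : ℝ → (Fin d → ℝ)} (hx : IsForwardSolution v x)
    {Q : Set (Leaf (Fin d))} (hQ : Q.Finite) (hc : ∀ l ∈ Q, Continuous l.2)
    {T₀ T₁ ε M a b : ℝ} (hε : 0 ≤ ε) (ha : 0 ≤ a) (hb : T₀ ≤ T₁ - ε * (b - a))
    (hM : ∀ l ∈ Q, ∀ T ∈ Icc T₀ T₁, ∀ T' ∈ Icc T₀ T₁, T' ≤ T → l.2 T - M * (T - T') ≤ l.2 T')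
    (hin : ∀ l ∈ Q, (∀ t, 0 ≤ t → ∀ T ∈ Icc T₀ T₁, l.1 ⬝ᵥ x t ≤ l.2 T) ∨
      ∀ T ∈ Icc T₀ T₁, ∀ y ∈ poly Q T, l.1 ⬝ᵥ y = l.2 T → l.1 ⬝ᵥ v y + M * ε < 0)
    (h0 : x a ∈ poly Q T₁) : ∀ t ∈ Icc a b, x t ∈ poly Q (T₁ - ε * (t - a)) := by
  have hT : ∀ t ∈ Icc a b, T₁ - ε * (t - a) ∈ Icc T₀ T₁ := by
    intro t ht
    constructor
    · nlinarith [ht.2]
    · nlinarith [ht.1]
  have hcx : ContinuousOn x (Icc a b) :=
    (fwd_continuousOn hx).mono fun t ht => ha.trans ht.1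
  set s : Set ℝ := {t | x t ∈ poly Q (T₁ - ε * (t - a))} with hs
  suffices h : Icc a b ⊆ s from fun t ht => h ht
  refine IsClosed.Icc_subset_of_forall_mem_nhdsWithin ?_ (by simpa [hs] using h0) ?_
  · have : s ∩ Icc a b = Icc a b ∩ ⋂ l ∈ Q,
        {t ∈ Icc a b | l.1 ⬝ᵥ x t ≤ l.2 (T₁ - ε * (t - a))} := by
      ext t
      simp only [hs, poly, mem_inter_iff, mem_ofPred_eq, mem_iInter]
      constructor
      · rintro ⟨h1, h2⟩
        exact ⟨h2, fun l hl => ⟨h2, h1 l hl⟩⟩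
      · rintro ⟨h1, h2⟩
        exact ⟨fun l hl => (h2 l hl).2, h1⟩
    rw [this]
    refine isClosed_Icc.inter (isClosed_biInter fun l hl => ?_)
    refine isClosed_Icc.isClosed_le ((dotL l.1).continuous.comp_continuousOn hcx) ?_
    exact ((hc l hl).comp (by fun_prop)).continuousOn
  · rintro t ⟨hts, ht⟩
    have ht0 : 0 ≤ t := ha.trans ht.1
    have hev : ∀ᶠ t' in 𝓝[>] t, t' ∈ Ioc t b := Ioc_mem_nhdsGT ht.2
    change ∀ᶠ t' in 𝓝[>] t, ∀ l ∈ Q, l.1 ⬝ᵥ x t' ≤ l.2 (T₁ - ε * (t' - a))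
    rw [Filter.eventually_all_finite hQ]
    intro l hl
    have hder : HasDerivWithinAt (fun s => l.1 ⬝ᵥ x s) (l.1 ⬝ᵥ v (x t)) (Ioi t) t :=
      ((dotL l.1).hasFDerivAt.comp_hasDerivWithinAt t (fwd_right hx ht0)).mono Ioi_subset_Ici_self
    rcases hin l hl with h | h
    · filter_upwards [hev] with t' ht'
      exact h t' (ht0.trans ht'.1.le) _ (hT t' ⟨ht.1.trans ht'.1.le, ht'.2⟩)
    · rcases (hts l hl).eq_or_lt with h1 | h1
      · have h2 := h _ (hT t ⟨ht.1, ht.2.le⟩) _ hts h1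
        have h3 := (hasDerivWithinAt_iff_tendsto_slope' (by simp)).1 hder
        have h4 : ∀ᶠ t' in 𝓝[>] t, slope (fun s => l.1 ⬝ᵥ x s) t t' < -(M * ε) :=
          h3.eventually_lt_const (by linarith)
        filter_upwards [hev, h4] with t' ht' h5
        have h6 : 0 < t' - t := sub_pos.2 ht'.1
        rw [slope_def_field, div_lt_iff₀ h6] at h5
        have h7 := hM l hl _ (hT t ⟨ht.1, ht.2.le⟩) _ (hT t' ⟨ht.1.trans ht'.1.le, ht'.2⟩)
          (by nlinarith)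
        nlinarith
      · have h2 : Tendsto (fun s => l.1 ⬝ᵥ x s) (𝓝[>] t) (𝓝 (l.1 ⬝ᵥ x t)) :=
          hder.continuousWithinAt
        have h3 : Tendsto (fun s => l.2 (T₁ - ε * (s - a))) (𝓝[>] t)
            (𝓝 (l.2 (T₁ - ε * (t - a)))) :=
          (((hc l hl).comp (by fun_prop : Continuous fun s => T₁ - ε * (s - a))).tendsto t).mono_left
            nhdsWithin_le_nhds
        filter_upwards [h2.eventually_lt h3 h1] with t' ht' using ht'.le

/-- Global forward solutions for bounded, globally Lipschitz fields. -/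
lemma exists_fwd {v : (Fin d → ℝ) → (Fin d → ℝ)} {K L : NNReal} (hv : LipschitzWith K v)
    (hb : ∀ y, ‖v y‖ ≤ L) (x₀ : Fin d → ℝ) : ∃ x, IsForwardSolution v x ∧ x 0 = x₀ := by
  have h : ∀ n : ℕ, ∃ α : ℝ → (Fin d → ℝ), α 0 = x₀ ∧
      ∀ t ∈ Icc (0 : ℝ) n, HasDerivWithinAt α (v (α t)) (Icc (0 : ℝ) n) t := by
    intro n
    have := IsPicardLindelof.of_time_independent (f := v) (tmin := 0) (tmax := (n : ℝ))
      (t₀ := ⟨0, le_rfl, Nat.cast_nonneg n⟩) (x₀ := x₀) (a := L * n) (r := 0) (L := L) (K := K)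
      (fun y _ => hb y) hv.lipschitzOnWith (by simp)
    exact this.exists_eq_forall_mem_Icc_hasDerivWithinAt₀
  choose α hα0 hα using h
  have hcont : ∀ n : ℕ, ∀ t : ℝ, t ≤ n → ContinuousOn (α n) (Icc 0 t) := fun n t ht =>
    (HasDerivWithinAt.continuousOn (hα n)).mono (Icc_subset_Icc_right ht)
  have hright : ∀ n : ℕ, ∀ t : ℝ, t ≤ n → ∀ s ∈ Ico 0 t,
      HasDerivWithinAt (α n) (v (α n s)) (Ici s) s := by
    intro n t ht s hs
    refine (hα n s ⟨hs.1, hs.2.le.trans ht⟩).mono_of_mem_nhdsWithin ?_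
    exact mem_of_superset (Icc_mem_nhdsGE (hs.2.trans_le ht)) (Icc_subset_Icc_left hs.1)
  have huniq : ∀ n m : ℕ, ∀ t : ℝ, 0 ≤ t → t ≤ n → t ≤ m → α n t = α m t := by
    intro n m t ht hn hm
    exact ODE_solution_unique (v := fun _ => v) (fun _ => hv) (hcont n t hn) (hright n t hn)
      (hcont m t hm) (hright m t hm) (by rw [hα0, hα0]) ⟨ht, le_rfl⟩
  refine ⟨fun t => α ⌈t⌉₊ t, ?_, hα0 _⟩
  intro t ht
  set N : ℕ := ⌈t⌉₊ + 1 with hN
  have htN : t < N := by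
    rw [hN]; push_cast; linarith [Nat.le_ceil t]
  have hmem : Icc (0 : ℝ) N ∈ 𝓝[Ici 0] t := by
    rw [← Ici_inter_Iic]
    exact inter_mem self_mem_nhdsWithin (mem_nhdsWithin_of_mem_nhds (Iic_mem_nhds htN))
  have h1 := (hα N t ⟨ht, htN.le⟩).mono_of_mem_nhdsWithin hmem
  have h2 : α ⌈t⌉₊ t = α N t := huniq _ _ t ht (Nat.le_ceil t) htN.le
  simp only
  rw [h2]
  refine h1.congr_of_eventuallyEq ?_ h2
  filter_upwards [hmem] with s hs
  exact huniq _ _ s hs.1 (Nat.le_ceil s) hs.2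

lemma field_contDiff (R : Network d) (k : (Fin d → ℕ) × (Fin d → ℕ) → ℝ) :
    ContDiff ℝ 1 (field R k) := by
  unfold field
  refine ContDiff.sum fun r _ => ?_
  have h : ContDiff ℝ 1 fun x : Fin d → ℝ => k r * ∏ i, x i ^ r.1 i :=
    contDiff_const.mul (contDiff_prod fun i _ => by fun_prop)
  exact h.smul contDiff_const

lemma field_mem (R : Network d) (k : (Fin d → ℕ) × (Fin d → ℕ) → ℝ) (y : Fin d → ℝ) :
    field R k y ∈ stoichSubspace R := by
  unfold field stoichSubspace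
  exact Submodule.sum_mem _ fun r hr =>
    Submodule.smul_mem _ _ (Submodule.subset_span ⟨r, hr, rfl⟩)

lemma dot_eq_zero_of_mem {R : Network d} {q : Fin d → ℝ}
    (hq : ∀ r ∈ R, q ⬝ᵥ reactionVector r = 0) {y : Fin d → ℝ} (hy : y ∈ stoichSubspace R) :
    q ⬝ᵥ y = 0 := by
  unfold stoichSubspace at hy
  induction hy using Submodule.span_induction with
  | mem x hx =>
    obtain ⟨r, hr, rfl⟩ := hx
    exact hq r hr
  | zero => simp
  | add x y _ _ h1 h2 => rw [dotProduct_add, h1, h2, add_zero]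
  | smul c x _ h => rw [dotProduct_smul, h, smul_zero]

lemma isClosed_poly (Q : Set (Leaf (Fin d))) (T : ℝ) : IsClosed (poly Q T) := by
  have : poly Q T = ⋂ l ∈ Q, {x | l.1 ⬝ᵥ x ≤ l.2 T} := by
    ext x; simp [poly]
  rw [this]
  exact isClosed_biInter fun l _ => isClosed_le (dotL l.1).continuous continuous_const

lemma convex_poly (Q : Set (Leaf (Fin d))) (T : ℝ) : Convex ℝ (poly Q T) := by
  intro x hx y hy a b ha hb hab l hl
  have h1 := hx l hl
  have h2 := hy l hl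
  rw [dotProduct_add, dotProduct_smul, dotProduct_smul, smul_eq_mul, smul_eq_mul]
  calc a * (l.1 ⬝ᵥ x) + b * (l.1 ⬝ᵥ y) ≤ a * l.2 T + b * l.2 T := by gcongr
    _ = l.2 T := by rw [← add_mul, hab, one_mul]

/-- Coordinatewise truncation. -/
noncomputable def clamp (ρ : ℝ) (y : Fin d → ℝ) : Fin d → ℝ := fun j => max 0 (min ρ (y j))

lemma clamp_lipschitz (ρ : ℝ) : LipschitzWith 1 (clamp (d := d) ρ) := by
  refine LipschitzWith.of_dist_le_mul fun x y => ?_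
  rw [NNReal.coe_one, one_mul, dist_pi_le_iff dist_nonneg]
  intro j
  have h : LipschitzWith 1 fun t : ℝ => max 0 (min ρ t) :=
    (LipschitzWith.id.const_min ρ).const_max 0
  have := h.dist_le_mul (x j) (y j)
  rw [NNReal.coe_one, one_mul] at this
  exact this.trans (dist_le_pi_dist x y j)

lemma clamp_mem {ρ : ℝ} (hρ : 0 ≤ ρ) (y : Fin d → ℝ) :
    clamp ρ y ∈ Icc (0 : Fin d → ℝ) (fun _ => ρ) :=
  ⟨fun _ => le_max_left _ _, fun _ => max_le hρ (min_le_left _ _)⟩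

lemma clamp_eq {ρ : ℝ} {y : Fin d → ℝ} (hy : y ∈ Icc (0 : Fin d → ℝ) (fun _ => ρ)) :
    clamp ρ y = y := by
  funext j
  have h1 : 0 ≤ y j := hy.1 j
  have h2 : y j ≤ ρ := hy.2 j
  simp [clamp, h1, h2]

end Crest.Agent.R92
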